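import Vale.Agent.P192.R2.H360.R.Defs

set_option linter.all false

/-! Row R4 and row R5c: machines over a group, heads and tapes. -/

namespace Vale.Agent.P192.R2.H225

open Vale.Agent.P192 Vale.Agent.P192.H437 Vale.Agent.P192.H593 Vale.Agent.P192.R2.H577
open Vale.Agent.P192.R2.H360.R
open scoped Pointwise

universe u v

theorem r4 (h2 : R2.{u, v}) (h3 : R3.{u, v}) : R4.{u, v} := by
  intro G _ _ hG S hSf hS H A Q _ _ _ _ T
  classical
  obtain ⟨K, hK⟩ := h3 G hG S hSf hS H A Q T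
  obtain ⟨M, hM⟩ := h2 G hG S hS K
  refine ⟨M, ?_⟩
  intro X _ _ hd tp st hL x y P hP hsep
  have hc : ∀ p : P, ∃ D : Set X, x ∈ D ∧ y ∉ D ∧ (fb S D).encard ≤ K ∧
      ∀ z ∈ fb S D, (hd z)⁻¹ * p.1 ∈ T := by
    intro p
    obtain ⟨D, h1, h2, h3, h4, -⟩ := hK X hd tp st hL x y p.1 (hP p.1 p.2)
    exact ⟨D, h1, h2, h3, h4⟩
  choose D hD1 hD2 hD3 hD4 using hc
  let e := P.equivFin
  refine hM X x y P.card (fun i => D (e.symm i)) (fun i => Or.inl ⟨hD1 _, hD2 _⟩)
    (fun i => hD3 _) ?_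
  intro i j hij
  rw [Set.disjoint_left]
  intro z hz hz'
  have h1 := hD4 _ z hz
  have h2 := hD4 _ z hz'
  have hne : ((e.symm i : P) : H) ≠ ((e.symm j : P) : H) := by
    intro h
    exact hij (e.symm.injective (Subtype.ext h))
  apply hsep _ (e.symm i).2 _ (e.symm j).2 hne
  have h5 := hL.inv _ h1
  have h6 := Finset.mul_mem_mul h5 h2
  rw [pow_two]
  have h7 : ((hd z)⁻¹ * ((e.symm i : P) : H))⁻¹ * ((hd z)⁻¹ * ((e.symm j : P) : H)) =
      ((e.symm i : P) : H)⁻¹ * ((e.symm j : P) : H) := by group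
  rw [h7] at h6
  exact h6

theorem growth (c B : ℝ) (hc : 0 < c) :
    ∃ L0 : ℕ, 3 ≤ L0 ∧ ∀ L : ℕ, L0 ≤ L →
      B * ((L : ℝ) + 2) < c * ((L : ℝ) * Real.log L / Real.log (Real.log L)) := by
  have h1 : Filter.Tendsto (fun x : ℝ => x / Real.log x) Filter.atTop Filter.atTop := by
    have h0 : Filter.Tendsto (fun x : ℝ => Real.log x / x) Filter.atTop (nhds 0) := by
      simpa using Real.isLittleO_log_id_atTop.tendsto_div_nhds_zero
    have h2 : Filter.Tendsto (fun x : ℝ => Real.log x / x) Filter.atTop (nhdsWithin 0 (Set.Ioi 0)) := by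
      rw [tendsto_nhdsWithin_iff]
      refine ⟨h0, ?_⟩
      filter_upwards [Filter.eventually_gt_atTop (1 : ℝ)] with x hx
      exact div_pos (Real.log_pos hx) (by linarith)
    have h3 := h2.inv_tendsto_nhdsGT_zero
    refine h3.congr ?_
    intro x
    simp
  have h2 : Filter.Tendsto (fun L : ℕ => Real.log (L : ℝ) / Real.log (Real.log (L : ℝ)))
      Filter.atTop Filter.atTop :=
    h1.comp (Real.tendsto_log_atTop.comp tendsto_natCast_atTop_atTop)
  have h3 := h2.eventually_gt_atTop (3 * |B| / c)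
  obtain ⟨L0, hL0⟩ := Filter.eventually_atTop.1 h3
  refine ⟨max L0 3, le_max_right _ _, ?_⟩
  intro L hL
  have h4 := hL0 L (le_trans (le_max_left _ _) hL)
  have h5 : 3 ≤ L := le_trans (le_max_right _ _) hL
  have h6 : (3 : ℝ) ≤ L := by exact_mod_cast h5
  rw [div_lt_iff₀ hc] at h4
  have h7 : B * ((L : ℝ) + 2) ≤ |B| * (3 * L) := by
    have := le_abs_self B
    have h8 := abs_nonneg B
    nlinarith
  have h8 : c * ((L : ℝ) * Real.log L / Real.log (Real.log L)) =
      L * (Real.log L / Real.log (Real.log L) * c) := by ring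
  rw [h8]
  have h9 : (L : ℝ) * (3 * |B|) < L * (Real.log L / Real.log (Real.log L) * c) :=
    mul_lt_mul_of_pos_left h4 (by linarith)
  linarith

theorem r5c : R5c.{u, v} := by
  intro h3 ha hb G _ _ hG S hSf hS H A Q _ _ _ _ T C
  classical
  obtain ⟨K, hK⟩ := h3 G hG S hSf hS H A Q T
  obtain ⟨M, hM⟩ := ha G hG S hS K
  obtain ⟨C1, hC1⟩ := hb G hG S hSf hS H A Q T K
  obtain ⟨c, hc, hcut⟩ := cut_sum.{u, v} G hG S hS
  obtain ⟨L0, hL03, hL0⟩ := growth c ((C1 : ℝ) * C * M) hc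
  refine ⟨M * (L0 + 2), ?_⟩
  intro X _ _ hd tp st hL x y n Z hZ hZn hn
  have : Nonempty X := ⟨x⟩
  have hcon := sch_connected (X := X) hS
  rw [hop_iff hcon, not_le] at hn
  obtain ⟨a, b, h1, h2⟩ := hM X x y
  by_cases hab : a = b
  · subst hab
    rw [SimpleGraph.dist_self] at h1
    nlinarith
  obtain ⟨CC, h4, h5, h6, h7⟩ := hC1 X hd tp st hL (hK X hd tp st hL) Z hZ a b hab h2
  by_contra hcon2
  push Not at hcon2
  have h8 : L0 ≤ (sch S X).dist a b - 1 := by
    by_contra h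
    push Not at h
    have : (sch S X).dist a b + 1 ≤ L0 + 2 := by omega
    have := Nat.mul_le_mul_left M this
    omega
  have h9 := hcut X CC ((sch S X).dist a b - 1) (by omega) h4 h5 h6 (C1 * Z.card) h7
  have h10 := hL0 _ h8
  have h11 : (((C1 * Z.card : ℕ)) : ℝ) ≤ (C1 : ℝ) * C * M *
      ((((sch S X).dist a b - 1 : ℕ) : ℝ) + 2) := by
    have h12 : C1 * Z.card ≤ C1 * C * M * (((sch S X).dist a b - 1) + 2) := by
      calc C1 * Z.card ≤ C1 * (C * n) := Nat.mul_le_mul_left _ hZn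
        _ ≤ C1 * (C * (M * (((sch S X).dist a b - 1) + 2))) := by
          apply Nat.mul_le_mul_left
          apply Nat.mul_le_mul_left
          have : (sch S X).dist a b + 1 ≤ (((sch S X).dist a b - 1) + 2) := by omega
          have := Nat.mul_le_mul_left M this
          omega
        _ = C1 * C * M * (((sch S X).dist a b - 1) + 2) := by ring
    exact_mod_cast h12
  linarith

end Vale.Agent.P192.R2.H225
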