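import Vale.Agent.P192.R2.H360.R.Defs2

set_option linter.all false

/-! Row R7: machines over a group, the window of a configuration. -/

namespace Vale.Agent.P192.R2.H225

open Vale.Agent.P192 Vale.Agent.P192.H437 Vale.Agent.P192.H593 Vale.Agent.P192.R2.H577
open Vale.Agent.P192.R2.H360.R
open scoped Pointwise

section

variable {H A Q : Type} [Group H] [DecidableEq H]

theorem step {T : Finset H} {g : Cf H A Q → Cf H A Q} (hg : Mach T g) {z z' : Cf H A Q}
    (h1 : z.2.1 = z'.2.1) (h2 : z.2.2 = z'.2.2) (h3 : ∀ τ ∈ T, z.1 (z.2.1 * τ) = z'.1 (z.2.1 * τ)) :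
    (g z).2.1 = (g z').2.1 ∧ (g z).2.2 = (g z').2.2 ∧
      ∀ p, z.1 p = z'.1 p → (g z).1 p = (g z').1 p := by
  obtain ⟨ha, hb, hc⟩ := hg
  obtain ⟨h4, h5, h6⟩ := hc z z' h2 (fun τ hτ => by rw [← h1]; exact h3 τ hτ)
  refine ⟨?_, h5, ?_⟩
  · rw [← h1] at h4
    exact mul_left_cancel h4
  · intro p hp
    by_cases hpT : z.2.1⁻¹ * p ∈ T
    · have h7 := h6 _ hpT
      rw [← h1, mul_inv_cancel_left] at h7
      exact h7
    · have h7 : (g z).1 p = z.1 p := by
        by_contra h
        exact hpT (hb z p h)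
      have h8 : (g z').1 p = z'.1 p := by
        by_contra h
        exact hpT (by rw [h1]; exact hb z' p h)
      rw [h7, h8, hp]

theorem pow_mono {T : Finset H} (h1 : (1 : H) ∈ T) {m n : ℕ} (h : m ≤ n) {x : H}
    (hx : x ∈ T ^ m) : x ∈ T ^ n := Finset.pow_subset_pow_right h1 h hx

variable {G : Type} [Group G] {S : Set G} {T : Finset H} [MulAction G (Cf H A Q)]

/-- one more letter -/
theorem head_word (hM : MA (H := H) (A := A) (Q := Q) G S T) (z : Cf H A Q) (w : List G)
    (hw : ∀ s ∈ w, s ∈ S ∨ s⁻¹ ∈ S) :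
    z.2.1⁻¹ * (w.prod • z).2.1 ∈ T ^ w.length ∧
      ∀ p, (w.prod • z).1 p ≠ z.1 p → z.2.1⁻¹ * p ∈ T ^ w.length := by
  induction w with
  | nil =>
    simp
  | cons s w ih =>
    obtain ⟨h1, h2⟩ := ih fun t ht => hw t (by simp [ht])
    obtain ⟨ha, hb, hc⟩ := hM.mach s (hw s (by simp))
    rw [List.prod_cons, mul_smul, List.length_cons, pow_succ]
    refine ⟨?_, ?_⟩
    · have h3 := Finset.mul_mem_mul h1 (ha (w.prod • z))
      have h4 : z.2.1⁻¹ * (w.prod • z).2.1 * ((w.prod • z).2.1⁻¹ * (s • w.prod • z).2.1) =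
          z.2.1⁻¹ * (s • w.prod • z).2.1 := by group
      rw [h4] at h3
      exact h3
    · intro p hp
      by_cases h : (s • w.prod • z).1 p = (w.prod • z).1 p
      · have h3 := h2 p (by rw [← h]; exact hp)
        have h4 := Finset.mul_mem_mul h3 hM.one
        rw [mul_one] at h4
        exact h4
      · have h3 := Finset.mul_mem_mul h1 (hb (w.prod • z) p h)
        have h4 : z.2.1⁻¹ * (w.prod • z).2.1 * ((w.prod • z).2.1⁻¹ * p) = z.2.1⁻¹ * p := by group
        rw [h4] at h3
        exact h3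

/-- two configurations which agree on a large window -/
theorem sim (hM : MA (H := H) (A := A) (Q := Q) G S T) (z z' : Cf H A Q) (h1 : z.2.1 = z'.2.1)
    (h2 : z.2.2 = z'.2.2) (l : ℕ) (h3 : ∀ p, z.2.1⁻¹ * p ∈ T ^ l → z.1 p = z'.1 p) (w : List G)
    (hw : ∀ s ∈ w, s ∈ S ∨ s⁻¹ ∈ S)
    (hl : ∀ u v : List G, u ++ v = w → u ≠ [] → z.2.1⁻¹ * (v.prod • z').2.1 ∈ T ^ (l - 1)) (hl1 : 1 ≤ l) :
    (w.prod • z).2.1 = (w.prod • z').2.1 ∧ (w.prod • z).2.2 = (w.prod • z').2.2 ∧
      ∀ p, z.1 p = z'.1 p → (w.prod • z).1 p = (w.prod • z').1 p := by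
  induction w with
  | nil =>
    simp only [List.prod_nil, one_smul]
    exact ⟨h1, h2, fun p hp => hp⟩
  | cons s w ih =>
    obtain ⟨i1, i2, i3⟩ := ih (fun t ht => hw t (by simp [ht]))
      (fun u v huv hu => hl (s :: u) v (by rw [List.cons_append, huv]) (by simp))
    rw [List.prod_cons, mul_smul, mul_smul]
    have h4 := hl [s] w rfl (by simp)
    obtain ⟨j1, j2, j3⟩ := step (hM.mach s (hw s (by simp))) i1 i2 (by
      intro τ hτ
      apply i3
      apply h3
      have h5 := Finset.mul_mem_mul h4 hτ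
      rw [← pow_succ, Nat.sub_add_cancel hl1, ← i1] at h5
      rw [← mul_assoc]
      exact h5)
    exact ⟨j1, j2, fun p hp => j3 p (i3 p hp)⟩

/-- points of a small orbit are reached by short words -/
theorem small {X : Type} [MulAction G X] (hS : Subgroup.closure S = ⊤) (x : X) (n : ℕ)
    (h : (MulAction.orbit G x).encard ≤ n) (g : G) : hop S n x (g • x) := by
  classical
  have hfin : (MulAction.orbit G x).Finite := Set.finite_of_encard_le_coe h
  have : Fintype (MulAction.orbit G x) := hfin.fintype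
  have : Nonempty (MulAction.orbit G x) := ⟨⟨x, MulAction.mem_orbit_self x⟩⟩
  have hc := sch_connected (X := MulAction.orbit G x) hS
  let a : MulAction.orbit G x := ⟨x, MulAction.mem_orbit_self x⟩
  let b : MulAction.orbit G x := g • a
  obtain ⟨p, hp⟩ := (hc.preconnected a b).exists_isPath
  have h1 := hp.length_lt
  have h2 : Fintype.card (MulAction.orbit G x) ≤ n := by
    have h3 : (MulAction.orbit G x).encard = (Fintype.card (MulAction.orbit G x) : ℕ∞) := by
      rw [← Set.coe_fintypeCard]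
    rw [h3] at h
    exact_mod_cast h
  obtain ⟨w, hw1, hw2, hw3⟩ := hop_of_walk p
  refine ⟨w, hw1, by omega, ?_⟩
  have h4 := congrArg Subtype.val hw3
  exact h4

end

theorem r7 : R7 := by
  intro h6 H _ _ hH A Q _ _ a0 G _ _ hG S T _ hM D
  classical
  obtain ⟨k, hk⟩ := h6 H hH A Q a0 G hG S T hM D
  refine ⟨D + k + 1, by omega, ?_⟩
  intro z hz
  set l := D + k + 1 with hl
  set z0 : Cf H A Q := (fun p => if z.2.1⁻¹ * p ∈ T ^ D then z.1 p else a0, z.2.1, z.2.2) with hz0
  have hz0D : ∀ p, z0.1 p ≠ a0 → z0.2.1⁻¹ * p ∈ T ^ D := by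
    intro p hp
    by_contra h
    apply hp
    show (if z.2.1⁻¹ * p ∈ T ^ D then z.1 p else a0) = a0
    rw [if_neg h]
  have hag : ∀ p, z.2.1⁻¹ * p ∈ T ^ l → z.1 p = z0.1 p := by
    intro p hp
    show z.1 p = (if z.2.1⁻¹ * p ∈ T ^ D then z.1 p else a0)
    split_ifs with h
    · rfl
    · by_contra h7
      exact h (hz p h7 hp)
  rcases hk z0 hz0D with h | ⟨w0, ⟨w, hw, hwl, rfl⟩, p, hp1, hp2⟩
  · left
    have hall : ∀ g : G, z0.2.1⁻¹ * (g • z0).2.1 ∈ T ^ k := by
      intro g
      obtain ⟨u, hu1, hu2, hu3⟩ := small hM.gen z0 k h g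
      rw [← hu3]
      exact pow_mono hM.one hu2 (head_word hM z0 u hu1).1
    have hsim : ∀ g : G, (g • z).2.1 = (g • z0).2.1 ∧ (g • z).2.2 = (g • z0).2.2 ∧
        ∀ p, z.1 p = z0.1 p → (g • z).1 p = (g • z0).1 p := by
      intro g
      obtain ⟨u, hu, rfl⟩ := exists_list S hM.gen g
      apply sim hM z z0 rfl rfl l hag u hu
      · intro a v _ _
        exact pow_mono hM.one (by omega) (hall v.prod)
      · omega
    have hun : ∀ u : List G, (∀ s ∈ u, s ∈ S ∨ s⁻¹ ∈ S) → ∀ p, (u.prod • z).1 p ≠ z.1 p →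
        z.2.1⁻¹ * p ∈ T ^ l := by
      intro u
      induction u with
      | nil =>
        intro _ p hp
        rw [List.prod_nil, one_smul] at hp
        exact absurd rfl hp
      | cons s u ih =>
        intro hu p hp
        obtain ⟨ha, hb, hc⟩ := hM.mach s (hu s (by simp))
        rw [List.prod_cons, mul_smul] at hp
        by_cases h7 : (s • u.prod • z).1 p = (u.prod • z).1 p
        · exact ih (fun t ht => hu t (by simp [ht])) p (by rw [← h7]; exact hp)
        · have h8 := hb (u.prod • z) p h7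
          have h9 := hall u.prod
          rw [← (hsim u.prod).1] at h9
          have h10 := Finset.mul_mem_mul h9 h8
          have h11 : z.2.1⁻¹ * (u.prod • z).2.1 * ((u.prod • z).2.1⁻¹ * p) = z.2.1⁻¹ * p := by
            group
          have h12 : z0.2.1⁻¹ * (u.prod • z).2.1 * ((u.prod • z).2.1⁻¹ * p) = z.2.1⁻¹ * p := h11
          rw [h12, ← pow_succ] at h10
          exact pow_mono hM.one (by omega) h10
    let F : Cf H A Q → Cf H A Q := fun u =>
      (fun p => if z.2.1⁻¹ * p ∈ T ^ l then u.1 p else z.1 p, u.2.1, u.2.2)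
    have hsub : MulAction.orbit G z ⊆ F '' MulAction.orbit G z0 := by
      rintro _ ⟨g, rfl⟩
      refine ⟨g • z0, ⟨g, rfl⟩, ?_⟩
      show F (g • z0) = g • z
      obtain ⟨i1, i2, i3⟩ := hsim g
      refine Prod.ext ?_ (Prod.ext i1.symm i2.symm)
      funext p
      show (if z.2.1⁻¹ * p ∈ T ^ l then (g • z0).1 p else z.1 p) = (g • z).1 p
      split_ifs with h7
      · exact (i3 p (hag p h7)).symm
      · obtain ⟨u, hu, rfl⟩ := exists_list S hM.gen g
        by_contra h8
        exact h7 (hun u hu p (fun h9 => h8 h9.symm))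
    calc (MulAction.orbit G z).encard ≤ (F '' MulAction.orbit G z0).encard :=
          Set.encard_le_encard hsub
      _ ≤ (MulAction.orbit G z0).encard := Set.encard_image_le _ _
      _ ≤ k := h
      _ ≤ l := by exact_mod_cast (by omega : k ≤ l)
  · right
    obtain ⟨i1, i2, i3⟩ := sim hM z z0 rfl rfl l hag w hw (by
      intro u v huv hu
      have h7 := (head_word hM z0 v (fun s hs => hw s (by rw [← huv]; simp [hs]))).1
      have h8 : v.length ≤ w.length := by rw [← huv]; simp
      exact pow_mono hM.one (by omega) h7) (by omega)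
    obtain ⟨j1, j2⟩ := head_word hM z w hw
    obtain ⟨k1, k2⟩ := head_word hM z0 w hw
    refine ⟨w.prod • z, ⟨w.prod, rfl⟩, pow_mono hM.one (by omega) j1,
      fun p hp => pow_mono hM.one (by omega) (j2 p hp), p, ?_, ?_, ?_⟩
    · have h7 : z.2.1⁻¹ * p ∈ T ^ l := by
        by_cases h8 : (w.prod • z0).1 p = z0.1 p
        · exact pow_mono hM.one (by omega) (hz0D p (by rw [← h8]; exact hp1))
        · exact pow_mono hM.one (by omega) (k2 p h8)
      rw [i3 p (hag p h7)]
      exact hp1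
    · rw [i1]; exact hp2
    · by_cases h8 : (w.prod • z0).1 p = z0.1 p
      · exact pow_mono hM.one (by omega) (hz0D p (by rw [← h8]; exact hp1))
      · exact pow_mono hM.one (by omega) (k2 p h8)

end Vale.Agent.P192.R2.H225
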